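import Vale.Agent.Lib.P129.Hyper

/-!
P129 (separable quotient problem).  If a complex Banach space `X` carries a bounded operator `T`, not a
scalar multiple of the identity, without non-trivial closed hyperinvariant subspace, then `X` has a
separable infinite-dimensional quotient.
-/

namespace Vale.Agent.Results.P129.Hyperinvariant

theorem result {X : Type*} [NormedAddCommGroup X] [NormedSpace ℂ X] [CompleteSpace X]
    (T : X →L[ℂ] X) (hT : ∀ c : ℂ, T ≠ c • ContinuousLinearMap.id ℂ X)
    (hW : ∀ W : Submodule ℂ X, IsClosed (W : Set X) →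
      (∀ S : X →L[ℂ] X, S * T = T * S → ∀ w ∈ W, S w ∈ W) → W = ⊥ ∨ W = ⊤) :
    ∃ M : Submodule ℂ X, IsClosed (M : Set X) ∧ TopologicalSpace.SeparableSpace (X ⧸ M) ∧
      ¬ FiniteDimensional ℂ (X ⧸ M) := by
  by_contra hX
  obtain ⟨W, hc, hb, ht, hinv⟩ := Vale.Agent.Lib.P129.hyperinvariant hX T hT
  rcases hW W hc hinv with h | h
  · exact hb h
  · exact ht h

end Vale.Agent.Results.P129.Hyperinvariant
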