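import Vale.Agent.Results.P129.OperatorCriterion
import Vale.Agent.Results.P129.ThreeSpace
import Vale.Agent.Results.P129.Hyperinvariant

/-!
P129 (separable quotient problem).  Four statements on separable infinite-dimensional quotients of a
real or complex Banach space, in one theorem: (1) an operator-theoretic characterisation, (2) the
operator-range criterion, (3) the three-space theorem, (4) the hyperinvariant-subspace criterion.
-/

namespace Vale.Agent.Results.P129.A_Combined

universe u v

/-- `X` has a separable infinite-dimensional quotient: a closed subspace `M` such that `X ⧸ M` (with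
the quotient topology) is separable and not finite-dimensional. -/
def HasSQ (𝕜 : Type u) [RCLike 𝕜] (X : Type v) [AddCommGroup X] [Module 𝕜 X]
    [TopologicalSpace X] : Prop :=
  ∃ M : Submodule 𝕜 X, IsClosed (M : Set X) ∧ TopologicalSpace.SeparableSpace (X ⧸ M) ∧
    ¬ FiniteDimensional 𝕜 (X ⧸ M)

/-- (1) `X` has a separable infinite-dimensional quotient iff it carries a non-nilpotent bounded
operator with dense generalized kernel. -/
def OperatorChar (𝕜 : Type u) [RCLike 𝕜] (X : Type v) [NormedAddCommGroup X] [NormedSpace 𝕜 X] :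
    Prop :=
  HasSQ 𝕜 X ↔ ∃ T : X →L[𝕜] X, (∀ n : ℕ, T ^ n ≠ 0) ∧ Dense {y : X | ∃ n : ℕ, (T ^ n) y = 0}

/-- (2) every bounded operator from a Banach space into `X` with dense range that is not onto forces
a separable infinite-dimensional quotient of `X`. -/
def RangeCrit (𝕜 : Type u) [RCLike 𝕜] (X : Type v) [NormedAddCommGroup X] [NormedSpace 𝕜 X] :
    Prop :=
  ∀ (B : Type v) [NormedAddCommGroup B] [NormedSpace 𝕜 B] [CompleteSpace B] (T : B →L[𝕜] X),
    DenseRange T → ¬ Function.Surjective T → HasSQ 𝕜 X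

/-- (3) three-space property at `X`. -/
def ThreeSpaceProp (𝕜 : Type u) [RCLike 𝕜] (X : Type v) [NormedAddCommGroup X] [NormedSpace 𝕜 X] :
    Prop :=
  ∀ Y : Submodule 𝕜 X, IsClosed (Y : Set X) → HasSQ 𝕜 X → HasSQ 𝕜 Y ∨ HasSQ 𝕜 (X ⧸ Y)

/-- (4) a non-scalar operator without non-trivial closed hyperinvariant subspace forces a separable
infinite-dimensional quotient. -/
def HyperCrit (X : Type v) [NormedAddCommGroup X] [NormedSpace ℂ X] : Prop :=
  ∀ T : X →L[ℂ] X, (∀ c : ℂ, T ≠ c • ContinuousLinearMap.id ℂ X) →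
    (∀ W : Submodule ℂ X, IsClosed (W : Set X) →
      (∀ S : X →L[ℂ] X, S * T = T * S → ∀ w ∈ W, S w ∈ W) → W = ⊥ ∨ W = ⊤) →
    HasSQ ℂ X

theorem result :
    (∀ (𝕜 : Type u) [RCLike 𝕜] (X : Type v) [NormedAddCommGroup X] [NormedSpace 𝕜 X]
      [CompleteSpace X], OperatorChar 𝕜 X ∧ RangeCrit 𝕜 X ∧ ThreeSpaceProp 𝕜 X) ∧
    (∀ (X : Type v) [NormedAddCommGroup X] [NormedSpace ℂ X] [CompleteSpace X], HyperCrit X) := by
  refine ⟨fun 𝕜 _ X _ _ _ => ⟨OperatorCriterion.result, ?_, fun Y hY h => ThreeSpace.result Y hY h⟩,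
    fun X _ _ _ T hT hW => Hyperinvariant.result T hT hW⟩
  intro B _ _ _ T hd hns
  by_contra hX
  exact hns (Vale.Agent.Lib.P129.surjective_of_denseRange_of_not_sq hX T hd)

end Vale.Agent.Results.P129.A_Combined
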