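import Vale.Agent.Lib.P129.ThreeSpace

/-!
P129 (separable quotient problem).  Three-space theorem: let `X` be a real or complex Banach space
and `Y` a closed subspace.  If `X` has a separable infinite-dimensional quotient, then `Y` has one or
`X ⧸ Y` has one.  Equivalently, the class of Banach spaces without separable infinite-dimensional
quotient is closed under extensions.
-/

namespace Vale.Agent.Results.P129.A_ThreeSpace

theorem result {𝕜 : Type*} [RCLike 𝕜] {X : Type*} [NormedAddCommGroup X] [NormedSpace 𝕜 X]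
    [CompleteSpace X] (Y : Submodule 𝕜 X) (hY : IsClosed (Y : Set X))
    (h : ∃ M : Submodule 𝕜 X, IsClosed (M : Set X) ∧ TopologicalSpace.SeparableSpace (X ⧸ M) ∧
      ¬ FiniteDimensional 𝕜 (X ⧸ M)) :
    (∃ M : Submodule 𝕜 Y, IsClosed (M : Set Y) ∧ TopologicalSpace.SeparableSpace (Y ⧸ M) ∧
      ¬ FiniteDimensional 𝕜 (Y ⧸ M)) ∨
    (∃ M : Submodule 𝕜 (X ⧸ Y), IsClosed (M : Set (X ⧸ Y)) ∧
      TopologicalSpace.SeparableSpace ((X ⧸ Y) ⧸ M) ∧ ¬ FiniteDimensional 𝕜 ((X ⧸ Y) ⧸ M)) :=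
  Vale.Agent.Lib.P129.three_space Y hY h

end Vale.Agent.Results.P129.A_ThreeSpace
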