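import Vale.Agent.Lib.P129.Cofinal
import Vale.Agent.Lib.P129.CofSeq

/-!
P129 (separable quotient problem).  Every infinite-dimensional real or complex normed space (in
particular every Banach space) whose density character has countable cofinality has a separable
infinite-dimensional quotient.
-/

namespace Vale.Agent.Results.P129.CountableCofinality

open Cardinal Vale.Agent.Lib.P129

theorem result {𝕜 : Type*} [RCLike 𝕜] {X : Type*} [NormedAddCommGroup X] [NormedSpace 𝕜 X]
    (hinf : ¬ FiniteDimensional 𝕜 X) (hcof : (dens X).ord.cof = ℵ₀) :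
    ∃ M : Submodule 𝕜 X, IsClosed (M : Set X) ∧ TopologicalSpace.SeparableSpace (X ⧸ M) ∧
      ¬ FiniteDimensional 𝕜 (X ⧸ M) := by
  obtain ⟨D, hmono, hdense, hsmall⟩ := exists_small_union X hcof
  exact hasTS_iff_sq.1 (hasTS_of_small_union hinf D hmono hdense hsmall)

end Vale.Agent.Results.P129.CountableCofinality
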