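import Vale.Agent.Lib.P129.Shift

/-!
P129 (separable quotient problem).  For every real or complex Banach space `X`: `X` has a separable
infinite-dimensional quotient if and only if `X` carries a bounded linear operator `T` that is not
nilpotent and whose generalized kernel `⋃ n, ker (T ^ n)` is dense in `X`.
-/

namespace Vale.Agent.Results.P129.OperatorCriterion

theorem result {𝕜 : Type*} [RCLike 𝕜] {X : Type*} [NormedAddCommGroup X] [NormedSpace 𝕜 X]
    [CompleteSpace X] :
    (∃ M : Submodule 𝕜 X, IsClosed (M : Set X) ∧ TopologicalSpace.SeparableSpace (X ⧸ M) ∧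
      ¬ FiniteDimensional 𝕜 (X ⧸ M)) ↔
    ∃ T : X →L[𝕜] X, (∀ n : ℕ, T ^ n ≠ 0) ∧ Dense {y : X | ∃ n : ℕ, (T ^ n) y = 0} :=
  Vale.Agent.Lib.P129.sq_iff_operator

end Vale.Agent.Results.P129.OperatorCriterion
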